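import Vale.Agent.P256.Defs

/-! # P256 leaf: the point `(1, 0, 0)` is a singular point of `thePoly` when `r ≥ 2` -/

namespace Vale.Agent.P256

open MvPolynomial Matrix

variable {n k r : ℕ}

/-- The point `(s, x, w) = (1, 0, 0)`. -/
def apex (n k : ℕ) : Var n k → ℝ := Sum.elim (fun _ => 1) fun _ => 0

theorem eval_apex_entry (A : Fin n → Matrix (Fin r) (Fin r) ℝ)
    (G : Fin k → Fin k → Matrix (Fin r) (Fin r) ℝ) (i j : Fin r) :
    eval (apex n k) (polyMat A G i j) = 0 := by
  simp [polyMat, apex]

/-- Every entry of `polyMat A G` vanishes at `apex`.  Expand the determinant (`Matrix.det_apply`);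
`pderiv i` is a derivation, so the derivative of a product of `r ≥ 2` entries is a sum of terms each of
which still contains an undifferentiated entry (`Derivation.leibniz`, induction on the finite product,
or `Finset.prod` split off two factors), hence vanishes at `apex`. -/
theorem eval_apex_pderiv (hr : 2 ≤ r) (A : Fin n → Matrix (Fin r) (Fin r) ℝ)
    (G : Fin k → Fin k → Matrix (Fin r) (Fin r) ℝ) (i : Var n k) :
    eval (apex n k) (pderiv i (thePoly A G)) = 0 := by
  obtain ⟨r, rfl⟩ : ∃ r', r = r' + 2 := ⟨r - 2, by omega⟩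
  unfold thePoly
  rw [Matrix.det_apply', map_sum, map_sum]
  apply Finset.sum_eq_zero
  intro σ _
  rw [Fin.prod_univ_succ, Fin.prod_univ_succ, Derivation.leibniz, Derivation.leibniz]
  simp only [smul_eq_mul, map_add, map_mul, eval_apex_entry, zero_mul, mul_zero, add_zero]

end Vale.Agent.P256
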