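import Vale.Agent.P256.MinRoot

/-! # P256 leaf: identification of the hyperbolicity cone (matrix form) -/

namespace Vale.Agent.P256

open Matrix

variable {r : ℕ}

theorem cone_form_eq (E a G : Matrix (Fin r) (Fin r) ℝ) (s t : ℝ) (v : Fin r → ℝ) :
    v ⬝ᵥ (((t - s) • (t • E - a) - G) *ᵥ v) =
      (t - s) * (t * (v ⬝ᵥ (E *ᵥ v)) - v ⬝ᵥ (a *ᵥ v)) - v ⬝ᵥ (G *ᵥ v) := by
  simp only [Matrix.sub_mulVec, Matrix.smul_mulVec, dotProduct_sub, dotProduct_smul, smul_eq_mul]

theorem cone_form_eq' (a G : Matrix (Fin r) (Fin r) ℝ) (s : ℝ) (v : Fin r → ℝ) :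
    v ⬝ᵥ ((s • a - G) *ᵥ v) = s * (v ⬝ᵥ (a *ᵥ v)) - v ⬝ᵥ (G *ᵥ v) := by
  simp only [Matrix.sub_mulVec, Matrix.smul_mulVec, dotProduct_sub, dotProduct_smul, smul_eq_mul]

theorem cone_mat_eq (E a G : Matrix (Fin r) (Fin r) ℝ) (s t : ℝ) :
    (t - s) • (t • E - a) - G = t ^ 2 • E - t • (s • E + a) + (s • a - G) := by
  ext i j
  simp only [Matrix.sub_apply, Matrix.smul_apply, Matrix.add_apply, smul_eq_mul]
  ring

/-- Write `Q t = (t - s) (t E - a) - G = t^2 E - t (s E + a) + (s a - G)` and, for a vector `v`,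
`ε = v ⬝ᵥ E v > 0`, `α = v ⬝ᵥ a v`, `γ = v ⬝ᵥ G v ≥ 0`, so `v ⬝ᵥ Q t v = (t - s) (t ε - α) - γ`.

`←`: if `det (Q t) = 0` take a real kernel vector `v ≠ 0`; if `t < 0` then
`(t - s) (t ε - α) = (s - t) (α - t ε) ≥ s α + t^2 ε > γ`, a contradiction.

`→` (contrapositive, via `exists_root_le`): it suffices to find `t0 < 0` and `v0 ≠ 0` with
`v0 ⬝ᵥ Q t0 v0 ≤ 0`.  If `s < 0` take `t0 = s` and any `v0 ≠ 0` (here `0 < r` is used).
If `α < 0` for some `v0` take `t0 = α / ε`.  If `s α - γ < 0` for some `v0`, then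
`v0 ⬝ᵥ Q t v0 < 0` for `t < 0` close to `0` (continuity, or an explicit choice). -/
theorem cone_iff (hr : 0 < r) (E a G : Matrix (Fin r) (Fin r) ℝ) (hE : E.PosDef) (ha : a.IsSymm)
    (hG : G.PosSemidef) (s : ℝ) :
    (∀ t : ℝ, ((t - s) • (t • E - a) - G).det = 0 → 0 ≤ t) ↔
      (0 ≤ s ∧ a.PosSemidef ∧ (s • a - G).PosSemidef) := by
  have hEpos : ∀ v : Fin r → ℝ, v ≠ 0 → 0 < v ⬝ᵥ (E *ᵥ v) := by
    intro v hv
    have := hE.dotProduct_mulVec_pos hv
    simpa using this
  have hGnn : ∀ v : Fin r → ℝ, 0 ≤ v ⬝ᵥ (G *ᵥ v) := by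
    intro v
    have := hG.dotProduct_mulVec_nonneg v
    simpa using this
  have hEs : E.IsSymm := by
    have := hE.1
    simpa [Matrix.IsHermitian, Matrix.IsSymm, Matrix.conjTranspose_eq_transpose_of_trivial] using this
  have hGs : G.IsSymm := by
    have := hG.1
    simpa [Matrix.IsHermitian, Matrix.IsSymm, Matrix.conjTranspose_eq_transpose_of_trivial] using this
  constructor
  · intro H
    -- the form is positive at negative times
    have key : ∀ t0 : ℝ, t0 < 0 → ∀ v0 : Fin r → ℝ, v0 ≠ 0 →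
        0 < (t0 - s) * (t0 * (v0 ⬝ᵥ (E *ᵥ v0)) - v0 ⬝ᵥ (a *ᵥ v0)) - v0 ⬝ᵥ (G *ᵥ v0) := by
      intro t0 ht0 v0 hv0
      by_contra hcon
      push Not at hcon
      have hB : (s • E + a).IsSymm := (hEs.smul s).add ha
      have hC : (s • a - G).IsSymm := (ha.smul s).sub hGs
      have h' : v0 ⬝ᵥ ((t0 ^ 2 • E - t0 • (s • E + a) + (s • a - G)) *ᵥ v0) ≤ 0 := by
        rw [← cone_mat_eq, cone_form_eq]
        exact hcon
      obtain ⟨t, ht, hdet⟩ := exists_root_le E (s • E + a) (s • a - G) hE hB hC t0 v0 hv0 h'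
      rw [← cone_mat_eq] at hdet
      have := H t hdet
      linarith
    have hs : 0 ≤ s := by
      by_contra hcon
      push Not at hcon
      have hv : (fun _ : Fin r => (1 : ℝ)) ≠ 0 := by
        intro h0
        have := congrFun h0 ⟨0, hr⟩
        simp at this
      have k := key s hcon _ hv
      have g := hGnn (fun _ : Fin r => (1 : ℝ))
      simp only [sub_self, zero_mul, zero_sub] at k
      linarith
    have hann : ∀ v : Fin r → ℝ, 0 ≤ v ⬝ᵥ (a *ᵥ v) := by
      intro v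
      by_cases hv : v = 0
      · subst hv; simp
      by_contra hcon
      push Not at hcon
      have he := hEpos v hv
      have ht0 : (v ⬝ᵥ (a *ᵥ v)) / (v ⬝ᵥ (E *ᵥ v)) < 0 := div_neg_of_neg_of_pos hcon he
      have k := key _ ht0 v hv
      have g := hGnn v
      rw [div_mul_cancel₀ _ he.ne', sub_self, mul_zero, zero_sub] at k
      linarith
    refine ⟨hs, ?_, ?_⟩
    · apply Matrix.PosSemidef.of_dotProduct_mulVec_nonneg
      · simpa [Matrix.IsHermitian, Matrix.IsSymm, Matrix.conjTranspose_eq_transpose_of_trivial]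
          using ha
      · intro x
        simpa using hann x
    · apply Matrix.PosSemidef.of_dotProduct_mulVec_nonneg
      · have hC : (s • a - G).IsSymm := (ha.smul s).sub hGs
        simpa [Matrix.IsHermitian, Matrix.IsSymm, Matrix.conjTranspose_eq_transpose_of_trivial]
          using hC
      · intro v
        have e1 : star v ⬝ᵥ ((s • a - G) *ᵥ v) = s * (v ⬝ᵥ (a *ᵥ v)) - v ⬝ᵥ (G *ᵥ v) := by
          rw [← cone_form_eq']
          simp
        rw [e1]
        by_cases hv : v = 0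
        · subst hv; simp
        by_contra hcon
        push Not at hcon
        have he := hEpos v hv
        have hal := hann v
        set ε := v ⬝ᵥ (E *ᵥ v) with hε
        set α := v ⬝ᵥ (a *ᵥ v) with hα
        set γ := v ⬝ᵥ (G *ᵥ v) with hγ
        set δ := γ - s * α with hδ
        have hδpos : 0 < δ := by linarith
        have hc : 0 ≤ s * ε + α := by positivity
        have hD : 0 < ε + (s * ε + α) + δ := by linarith
        set τ := δ / (ε + (s * ε + α) + δ) with hτ
        have hτpos : 0 < τ := div_pos hδpos hD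
        have hτ1 : τ < 1 := by
          rw [hτ, div_lt_one hD]
          linarith
        have hτD : τ * (ε + (s * ε + α) + δ) = δ := by
          rw [hτ, div_mul_cancel₀ _ hD.ne']
        have k := key (-τ) (by linarith) v hv
        -- k : 0 < (-τ - s) * (-τ * ε - α) - γ
        have e2 : (-τ - s) * (-τ * ε - α) - γ = τ ^ 2 * ε + τ * (s * ε + α) - δ := by
          rw [hδ]; ring
        rw [e2] at k
        have b1 : τ ^ 2 * ε ≤ τ * ε := by
          have : τ ^ 2 ≤ τ := by nlinarith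
          exact mul_le_mul_of_nonneg_right this he.le
        have b2 : τ * ε + τ * (s * ε + α) + τ * δ = δ := by
          linarith [hτD]
        have b3 : 0 < τ * δ := mul_pos hτpos hδpos
        linarith
  · rintro ⟨hs, haP, hsP⟩ t hdet
    by_contra hcon
    push Not at hcon
    obtain ⟨v, hv, hker⟩ := Matrix.exists_mulVec_eq_zero_iff.mpr hdet
    have h0 : v ⬝ᵥ (((t - s) • (t • E - a) - G) *ᵥ v) = 0 := by
      rw [hker]; simp
    rw [cone_form_eq] at h0
    have he := hEpos v hv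
    have hal : 0 ≤ v ⬝ᵥ (a *ᵥ v) := by
      have := haP.dotProduct_mulVec_nonneg v
      simpa using this
    have hsg : 0 ≤ s * (v ⬝ᵥ (a *ᵥ v)) - v ⬝ᵥ (G *ᵥ v) := by
      rw [← cone_form_eq']
      have := hsP.dotProduct_mulVec_nonneg v
      simpa using this
    set ε := v ⬝ᵥ (E *ᵥ v) with hε
    set α := v ⬝ᵥ (a *ᵥ v) with hα
    set γ := v ⬝ᵥ (G *ᵥ v) with hγ
    have e2 : (t - s) * (t * ε - α) - γ = t ^ 2 * ε + (-t) * α + s * ((-t) * ε) + (s * α - γ) := by
      ring
    rw [e2] at h0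
    have p1 : 0 < t ^ 2 * ε := by
      have : 0 < t ^ 2 := by nlinarith
      exact mul_pos this he
    have p2 : 0 ≤ (-t) * α := mul_nonneg (by linarith) hal
    have p3 : 0 ≤ s * ((-t) * ε) := mul_nonneg hs (mul_nonneg (by linarith) he.le)
    linarith

end Vale.Agent.P256
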