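import Mathlib

/-!
# P256 (Projected Lax conjecture): definitions

A family of hyperbolic polynomials built from PSD-valued quadratic maps (equivalently: from positive
linear maps between spaces of symmetric matrices, equivalently: from nonnegative biquadratic forms).

Variables: `s` (one real), `x` in `R^n`, `w` in `R^k`.
`lin A x = sum_i x_i A_i` is a symmetric linear pencil of size `r`,
`quad G w = sum_{a b} w_a w_b G_{a b}` is a quadratic map with values in the PSD matrices of size `r`.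
The polynomial is `det (s * lin A x - quad G w)`, of degree `2 r`.
-/

namespace Vale.Agent.P256

open MvPolynomial Matrix

/-- `p` is homogeneous, `p e > 0`, and for every real point `x` all complex roots of
`t -> p (t e - x)` are real. -/
def IsHyperbolic {σ : Type} (p : MvPolynomial σ ℝ) (e : σ → ℝ) : Prop :=
  (∃ d : ℕ, p.IsHomogeneous d) ∧ 0 < eval e p ∧
    ∀ (x : σ → ℝ) (t : ℂ), aeval (fun i => t * (e i : ℂ) - (x i : ℂ)) p = 0 → t.im = 0

/-- The closed hyperbolicity cone: every root of `t -> p (t e - x)` is nonnegative. -/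
def hypCone {σ : Type} (p : MvPolynomial σ ℝ) (e : σ → ℝ) : Set (σ → ℝ) :=
  {x | ∀ t : ℝ, eval (fun i => t * e i - x i) p = 0 → 0 ≤ t}

/-- Spectrahedral shadows in `R^σ`. -/
def IsShadow {σ : Type} [Fintype σ] (S : Set (σ → ℝ)) : Prop :=
  ∃ (m a : ℕ) (A0 : Matrix (Fin m) (Fin m) ℝ) (A : σ → Matrix (Fin m) (Fin m) ℝ)
    (B : Fin a → Matrix (Fin m) (Fin m) ℝ),
    A0.IsSymm ∧ (∀ i, (A i).IsSymm) ∧ (∀ j, (B j).IsSymm) ∧
      S = {x | ∃ u : Fin a → ℝ, (A0 + ∑ i, x i • A i + ∑ j, u j • B j).PosSemidef}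

/-- The index set of the variables `(s, x, w)`. -/
abbrev Var (n k : ℕ) : Type := Unit ⊕ (Fin n ⊕ Fin k)

/-- The `s` coordinate. -/
def sOf {n k : ℕ} (y : Var n k → ℝ) : ℝ := y (Sum.inl ())

/-- The `x` coordinates. -/
def xOf {n k : ℕ} (y : Var n k → ℝ) : Fin n → ℝ := fun i => y (Sum.inr (Sum.inl i))

/-- The `w` coordinates. -/
def wOf {n k : ℕ} (y : Var n k → ℝ) : Fin k → ℝ := fun j => y (Sum.inr (Sum.inr j))

/-- The linear pencil `sum_i x_i A_i`. -/
def lin {n r : ℕ} (A : Fin n → Matrix (Fin r) (Fin r) ℝ) (x : Fin n → ℝ) :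
    Matrix (Fin r) (Fin r) ℝ := ∑ i, x i • A i

/-- The quadratic map `sum_{a b} w_a w_b G_{a b}`. -/
def quad {k r : ℕ} (G : Fin k → Fin k → Matrix (Fin r) (Fin r) ℝ) (w : Fin k → ℝ) :
    Matrix (Fin r) (Fin r) ℝ := ∑ a, ∑ b, (w a * w b) • G a b

/-- The linear map `W -> sum_{a b} W_{a b} G_{a b}`; `hat G (w w^T) = quad G w`. -/
def hat {k r : ℕ} (G : Fin k → Fin k → Matrix (Fin r) (Fin r) ℝ) (W : Matrix (Fin k) (Fin k) ℝ) :
    Matrix (Fin r) (Fin r) ℝ := ∑ a, ∑ b, W a b • G a b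

/-- The matrix of quadratic polynomials `s * lin A x - quad G w`. -/
noncomputable def polyMat {n k r : ℕ} (A : Fin n → Matrix (Fin r) (Fin r) ℝ)
    (G : Fin k → Fin k → Matrix (Fin r) (Fin r) ℝ) :
    Matrix (Fin r) (Fin r) (MvPolynomial (Var n k) ℝ) :=
  Matrix.of fun i j =>
    X (Sum.inl ()) * ∑ l, C (A l i j) * X (Sum.inr (Sum.inl l)) -
      ∑ a, ∑ b, C (G a b i j) * (X (Sum.inr (Sum.inr a)) * X (Sum.inr (Sum.inr b)))

/-- The polynomial `det (s * lin A x - quad G w)`. -/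
noncomputable def thePoly {n k r : ℕ} (A : Fin n → Matrix (Fin r) (Fin r) ℝ)
    (G : Fin k → Fin k → Matrix (Fin r) (Fin r) ℝ) : MvPolynomial (Var n k) ℝ :=
  (polyMat A G).det

/-- The direction `(1, e0, 0)`. -/
def dir {n k : ℕ} (e0 : Fin n → ℝ) : Var n k → ℝ :=
  Sum.elim (fun _ => 1) (Sum.elim e0 fun _ => 0)

/-- The bordered matrix `[[W, w], [w^T, s]]`. -/
def bord {k : ℕ} (W : Matrix (Fin k) (Fin k) ℝ) (w : Fin k → ℝ) (s : ℝ) :
    Matrix (Fin k ⊕ Unit) (Fin k ⊕ Unit) ℝ :=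
  Matrix.fromBlocks W (Matrix.of fun a _ => w a) (Matrix.of fun _ b => w b) (Matrix.of fun _ _ => s)

end Vale.Agent.P256
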