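import Vale.Agent.P256.Defs

/-! # P256 leaf: evaluation and homogeneity of `thePoly` -/

namespace Vale.Agent.P256

open MvPolynomial Matrix

variable {n k r : ℕ}

theorem polyMat_entry_isHomogeneous (A : Fin n → Matrix (Fin r) (Fin r) ℝ)
    (G : Fin k → Fin k → Matrix (Fin r) (Fin r) ℝ) (i j : Fin r) :
    (polyMat A G i j).IsHomogeneous 2 := by
  unfold polyMat
  simp only [Matrix.of_apply]
  apply IsHomogeneous.sub
  · have h1 : (∑ l, C (A l i j) * X (Sum.inr (Sum.inl l)) :
        MvPolynomial (Var n k) ℝ).IsHomogeneous 1 := by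
      apply IsHomogeneous.sum
      intro l _
      have := (isHomogeneous_C (Var n k) (A l i j)).mul
        (isHomogeneous_X ℝ (Sum.inr (Sum.inl l) : Var n k))
      simpa using this
    have := (isHomogeneous_X ℝ (Sum.inl () : Var n k)).mul h1
    simpa using this
  · apply IsHomogeneous.sum
    intro a _
    apply IsHomogeneous.sum
    intro b _
    have := (isHomogeneous_C (Var n k) (G a b i j)).mul
      ((isHomogeneous_X ℝ (Sum.inr (Sum.inr a) : Var n k)).mul
        (isHomogeneous_X ℝ (Sum.inr (Sum.inr b) : Var n k)))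
    simpa using this

theorem thePoly_isHomogeneous (A : Fin n → Matrix (Fin r) (Fin r) ℝ)
    (G : Fin k → Fin k → Matrix (Fin r) (Fin r) ℝ) : (thePoly A G).IsHomogeneous (2 * r) := by
  unfold thePoly
  rw [Matrix.det_apply]
  apply IsHomogeneous.sum
  intro σ _
  have h1 : (∏ i, polyMat A G (σ i) i).IsHomogeneous (∑ _i : Fin r, 2) :=
    IsHomogeneous.prod _ _ _ fun i _ => polyMat_entry_isHomogeneous A G (σ i) i
  have h2 : (∑ _i : Fin r, 2) = 2 * r := by simp [mul_comm]
  rw [h2] at h1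
  rcases Int.units_eq_one_or (Equiv.Perm.sign σ) with h | h
  · rw [h]; simpa using h1
  · rw [h]; simpa using h1.neg

theorem eval_thePoly (A : Fin n → Matrix (Fin r) (Fin r) ℝ)
    (G : Fin k → Fin k → Matrix (Fin r) (Fin r) ℝ) (y : Var n k → ℝ) :
    eval y (thePoly A G) = (sOf y • lin A (xOf y) - quad G (wOf y)).det := by
  unfold thePoly
  rw [RingHom.map_det]
  congr 1
  ext i j
  simp [polyMat, lin, quad, sOf, xOf, wOf, Matrix.sum_apply, Finset.mul_sum, mul_comm, mul_left_comm]


theorem lin_line (A : Fin n → Matrix (Fin r) (Fin r) ℝ) (e0 x : Fin n → ℝ) (t : ℝ) :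
    lin A (fun i => t * e0 i - x i) = t • lin A e0 - lin A x := by
  unfold lin
  rw [Finset.smul_sum, ← Finset.sum_sub_distrib]
  refine Finset.sum_congr rfl fun i _ => ?_
  rw [sub_smul, mul_smul]

theorem quad_neg (G : Fin k → Fin k → Matrix (Fin r) (Fin r) ℝ) (w : Fin k → ℝ) :
    quad G (fun j => -w j) = quad G w := by
  unfold quad
  simp

theorem eval_thePoly_line (A : Fin n → Matrix (Fin r) (Fin r) ℝ)
    (G : Fin k → Fin k → Matrix (Fin r) (Fin r) ℝ) (e0 : Fin n → ℝ) (y : Var n k → ℝ) (t : ℝ) :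
    eval (fun i => t * dir e0 i - y i) (thePoly A G) =
      ((t - sOf y) • (t • lin A e0 - lin A (xOf y)) - quad G (wOf y)).det := by
  rw [eval_thePoly]
  have h1 : sOf (fun i => t * dir e0 i - y i) = t - sOf y := by simp [sOf, dir]
  have h2 : xOf (fun i => t * dir e0 i - y i) = fun i => t * e0 i - xOf y i := by
    ext i; simp [xOf, dir]
  have h3 : wOf (fun i => t * dir e0 i - y i) = fun j => -wOf y j := by
    ext j; simp [wOf, dir]
  rw [h1, h2, h3, lin_line, quad_neg]

theorem eval_thePoly_dir (A : Fin n → Matrix (Fin r) (Fin r) ℝ)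
    (G : Fin k → Fin k → Matrix (Fin r) (Fin r) ℝ) (e0 : Fin n → ℝ) :
    eval (dir e0) (thePoly A G) = (lin A e0).det := by
  rw [eval_thePoly]
  have h1 : sOf (dir e0 : Var n k → ℝ) = 1 := by simp [sOf, dir]
  have h2 : xOf (dir e0 : Var n k → ℝ) = e0 := by ext i; simp [xOf, dir]
  have h3 : quad G (wOf (dir e0 : Var n k → ℝ)) = 0 := by simp [quad, wOf, dir]
  rw [h1, h2, h3]
  simp

theorem aeval_thePoly_line (A : Fin n → Matrix (Fin r) (Fin r) ℝ)
    (G : Fin k → Fin k → Matrix (Fin r) (Fin r) ℝ) (e0 : Fin n → ℝ) (y : Var n k → ℝ) (t : ℂ) :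
    aeval (fun i => t * (dir e0 i : ℂ) - (y i : ℂ)) (thePoly A G) =
      ((t - (sOf y : ℂ)) • (t • (lin A e0).map Complex.ofReal - (lin A (xOf y)).map Complex.ofReal)
        - (quad G (wOf y)).map Complex.ofReal).det := by
  unfold thePoly
  rw [AlgHom.map_det]
  congr 1
  ext i j
  simp only [AlgHom.mapMatrix_apply, Matrix.map_apply, polyMat, Matrix.of_apply, map_sub, map_mul,
    map_sum, aeval_X, aeval_C, Matrix.sub_apply, Matrix.smul_apply, lin, quad, Matrix.sum_apply,
    sOf, xOf, wOf, dir, Sum.elim_inl, Sum.elim_inr, smul_eq_mul, Complex.ofReal_sum,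
    Complex.ofReal_mul, Complex.ofReal_one, Complex.ofReal_zero, mul_one, mul_zero, zero_sub,
    Complex.coe_algebraMap]
  congr 1
  · congr 1
    rw [Finset.mul_sum, ← Finset.sum_sub_distrib]
    refine Finset.sum_congr rfl fun l _ => ?_
    ring
  · refine Finset.sum_congr rfl fun a _ => Finset.sum_congr rfl fun b _ => ?_
    ring

end Vale.Agent.P256
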