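import Vale.Agent.P256.Defs

/-! # P256 leaf: the semidefinite lift (matrix form) -/

namespace Vale.Agent.P256

open Matrix

variable {k r : ℕ}

/-- `hat G (vecMulVec w w) = quad G w` (definitional up to `simp [vecMulVec_apply]`). -/
theorem hat_vecMulVec (G : Fin k → Fin k → Matrix (Fin r) (Fin r) ℝ) (w : Fin k → ℝ) :
    hat G (vecMulVec w w) = quad G w := by
  unfold hat quad
  simp [vecMulVec_apply]

theorem hat_zero (G : Fin k → Fin k → Matrix (Fin r) (Fin r) ℝ) : hat G 0 = 0 := by
  unfold hat
  simp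

theorem hat_add (G : Fin k → Fin k → Matrix (Fin r) (Fin r) ℝ) (W V : Matrix (Fin k) (Fin k) ℝ) :
    hat G (W + V) = hat G W + hat G V := by
  unfold hat
  simp only [Matrix.add_apply, add_smul, Finset.sum_add_distrib]

theorem hat_smul (G : Fin k → Fin k → Matrix (Fin r) (Fin r) ℝ) (c : ℝ)
    (W : Matrix (Fin k) (Fin k) ℝ) : hat G (c • W) = c • hat G W := by
  unfold hat
  simp only [Matrix.smul_apply, smul_eq_mul, Finset.smul_sum, mul_smul]

theorem hat_sub (G : Fin k → Fin k → Matrix (Fin r) (Fin r) ℝ) (W V : Matrix (Fin k) (Fin k) ℝ) :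
    hat G (W - V) = hat G W - hat G V := by
  unfold hat
  simp only [Matrix.sub_apply, sub_smul, Finset.sum_sub_distrib]

theorem hat_sum (G : Fin k → Fin k → Matrix (Fin r) (Fin r) ℝ) {ι : Type} (s : Finset ι)
    (W : ι → Matrix (Fin k) (Fin k) ℝ) : hat G (∑ i ∈ s, W i) = ∑ i ∈ s, hat G (W i) := by
  classical
  induction s using Finset.induction_on with
  | empty => simp [hat_zero]
  | insert i s hi ih => rw [Finset.sum_insert hi, Finset.sum_insert hi, hat_add, ih]

/-- A PSD matrix is `W = Bᵀ B` (`Matrix.posSemidef_iff_eq_conjTranspose_mul_self` or a square root),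
so `W a b = ∑ c, B c a * B c b` and `hat G W = ∑ c, quad G (B c)`. -/
theorem hat_posSemidef (G : Fin k → Fin k → Matrix (Fin r) (Fin r) ℝ)
    (hG : ∀ w, (quad G w).PosSemidef) (W : Matrix (Fin k) (Fin k) ℝ) (hW : W.PosSemidef) :
    (hat G W).PosSemidef := by
  obtain ⟨m, v, rfl⟩ := Matrix.posSemidef_iff_eq_sum_vecMulVec.mp hW
  rw [hat_sum]
  refine Matrix.posSemidef_sum _ fun i _ => ?_
  have : star (v i) = v i := by
    ext j
    simp
  rw [this, hat_vecMulVec]
  exact hG _

theorem eq_zero_of_posSemidef_neg {n : ℕ} (M : Matrix (Fin n) (Fin n) ℝ) (h1 : M.PosSemidef)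
    (h2 : (-M).PosSemidef) : M = 0 := by
  open scoped MatrixOrder in
  exact le_antisymm (neg_nonneg.mp h2.nonneg) h1.nonneg

theorem bord_form (W : Matrix (Fin k) (Fin k) ℝ) (w : Fin k → ℝ) (s : ℝ) (c : Fin k → ℝ) (τ : ℝ) :
    star (Sum.elim c (fun _ : Unit => τ)) ⬝ᵥ (bord W w s *ᵥ (Sum.elim c (fun _ : Unit => τ)))
      = s * (τ * τ) + (2 * (c ⬝ᵥ w)) * τ + c ⬝ᵥ (W *ᵥ c) := by
  unfold bord
  simp only [dotProduct, mulVec, Fintype.sum_sum_type, Pi.star_apply, star_trivial, Sum.elim_inl,
    Sum.elim_inr, fromBlocks_apply₁₁, fromBlocks_apply₁₂, fromBlocks_apply₂₁, fromBlocks_apply₂₂,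
    of_apply, Finset.univ_unique, Finset.sum_singleton, mul_add, Finset.sum_add_distrib]
  have e1 : ∑ x, c x * (w x * τ) = (∑ x, c x * w x) * τ := by
    rw [Finset.sum_mul]
    exact Finset.sum_congr rfl fun x _ => by ring
  have e2 : τ * ∑ x, w x * c x = (∑ x, c x * w x) * τ := by
    rw [Finset.sum_mul, Finset.mul_sum]
    exact Finset.sum_congr rfl fun x _ => by ring
  rw [e1, e2]
  ring

/-- `→`: if `s > 0` take `W = s⁻¹ • vecMulVec w w`: the quadratic form of `bord W w s` at `(c, τ)` is
`s⁻¹ (c ⬝ᵥ w + s τ)^2`, and `a - hat G W = s⁻¹ • (s • a - quad G w)`.  If `s = 0` then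
`quad G w` and `- quad G w` are PSD, so `quad G w = 0`, `w = 0`; take `W = 0`.

`←`: from `bord W w s` PSD: `s ≥ 0`, `W` PSD (submatrix) and `s • W - vecMulVec w w` PSD (test the
form at `(s c, - c ⬝ᵥ w)` if `s > 0`; if `s = 0` the form at `(c, τ)` for all `τ` gives `c ⬝ᵥ w = 0`).
Apply `hat_posSemidef`: `hat G W` PSD, `s • hat G W - quad G w` PSD.  Hence `a = (a - hat G W) + hat G W`
is PSD and `s • a - quad G w = s • (a - hat G W) + (s • hat G W - quad G w)` is PSD. -/
theorem lift_iff (G : Fin k → Fin k → Matrix (Fin r) (Fin r) ℝ)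
    (hG : ∀ w, (quad G w).PosSemidef) (hnd : ∀ w, quad G w = 0 → w = 0)
    (s : ℝ) (a : Matrix (Fin r) (Fin r) ℝ) (w : Fin k → ℝ) :
    (0 ≤ s ∧ a.PosSemidef ∧ (s • a - quad G w).PosSemidef) ↔
      ∃ W : Matrix (Fin k) (Fin k) ℝ, (bord W w s).PosSemidef ∧ (a - hat G W).PosSemidef := by
  constructor
  · rintro ⟨hs, ha, hq⟩
    rcases hs.eq_or_lt with h0 | hpos
    · subst h0
      have h1 : (-(quad G w)).PosSemidef := by simpa using hq
      have h2 : quad G w = 0 := eq_zero_of_posSemidef_neg _ (hG w) h1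
      have h3 : w = 0 := hnd w h2
      subst h3
      refine ⟨0, ?_, ?_⟩
      · have : bord (0 : Matrix (Fin k) (Fin k) ℝ) 0 0 = 0 := by
          ext i j
          rcases i with i | i <;> rcases j with j | j <;> simp [bord]
        rw [this]
        exact PosSemidef.zero
      · rw [hat_zero, sub_zero]
        exact ha
    · refine ⟨s⁻¹ • vecMulVec w w, ?_, ?_⟩
      · have : bord (s⁻¹ • vecMulVec w w) w s
            = s⁻¹ • vecMulVec (Sum.elim w (fun _ : Unit => s)) (star (Sum.elim w (fun _ : Unit => s))) := by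
          ext i j
          rcases i with i | i <;> rcases j with j | j <;>
            simp [bord, vecMulVec_apply] <;> field_simp
        rw [this]
        exact (posSemidef_vecMulVec_self_star _).smul (inv_nonneg.2 hs)
      · have : a - hat G (s⁻¹ • vecMulVec w w) = s⁻¹ • (s • a - quad G w) := by
          rw [hat_smul, hat_vecMulVec, smul_sub, smul_smul, inv_mul_cancel₀ hpos.ne', one_smul]
        rw [this]
        exact hq.smul (inv_nonneg.2 hs)
  · rintro ⟨W, hB, hA⟩
    have hs : 0 ≤ s := by
      have := hB.diag_nonneg (i := Sum.inr ())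
      simpa [bord] using this
    have hW : W.PosSemidef := by
      have := hB.submatrix (Sum.inl : Fin k → Fin k ⊕ Unit)
      have e : (bord W w s).submatrix Sum.inl Sum.inl = W := by
        ext i j
        simp [bord]
      rwa [e] at this
    have hS : (s • W - vecMulVec w w).PosSemidef := by
      refine PosSemidef.of_dotProduct_mulVec_nonneg ?_ ?_
      · have h1 : W.IsHermitian := hW.1
        have h2 : (vecMulVec w w).IsHermitian := by
          ext i j
          simp [vecMulVec_apply, mul_comm]
        have h3 : (s • W).IsHermitian := by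
          ext i j
          have := congrFun (congrFun h1 i) j
          simp only [conjTranspose_apply, star_trivial, Matrix.smul_apply, smul_eq_mul] at this ⊢
          rw [this]
        exact h3.sub h2
      · intro c
        have hd : discrim s (2 * (c ⬝ᵥ w)) (c ⬝ᵥ (W *ᵥ c)) ≤ 0 := by
          apply discrim_le_zero
          intro τ
          rw [← bord_form]
          exact hB.dotProduct_mulVec_nonneg _
        have e : star c ⬝ᵥ ((s • W - vecMulVec w w) *ᵥ c)
            = s * (c ⬝ᵥ (W *ᵥ c)) - (c ⬝ᵥ w) * (c ⬝ᵥ w) := by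
          have hc : star c = c := by
            ext j
            simp
          rw [hc, sub_mulVec, dotProduct_sub, smul_mulVec, dotProduct_smul, vecMulVec_mulVec,
            smul_eq_mul]
          simp [dotProduct_smul, dotProduct_comm]
        rw [e]
        unfold discrim at hd
        nlinarith
    have hH : (hat G W).PosSemidef := hat_posSemidef G hG W hW
    have hH2 : (s • hat G W - quad G w).PosSemidef := by
      have := hat_posSemidef G hG _ hS
      rwa [hat_sub, hat_smul, hat_vecMulVec] at this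
    refine ⟨hs, ?_, ?_⟩
    · have : a = (a - hat G W) + hat G W := by abel
      rw [this]
      exact hA.add hH
    · have : s • a - quad G w = s • (a - hat G W) + (s • hat G W - quad G w) := by
        rw [smul_sub]
        abel
      rw [this]
      exact (hA.smul hs).add hH2

end Vale.Agent.P256
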