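import Vale.Agent.P256.Pack

/-! # P256 leaf: the lifted description is a spectrahedral shadow -/

namespace Vale.Agent.P256

open Matrix

variable {n k r : ℕ}

/-- A block diagonal real matrix is PSD iff both blocks are. -/
theorem posSemidef_blockDiag {α β : Type} [Fintype α] [Fintype β]
    (P : Matrix α α ℝ) (Q : Matrix β β ℝ) :
    (fromBlocks P 0 0 Q).PosSemidef ↔ P.PosSemidef ∧ Q.PosSemidef := by
  constructor
  · intro h
    constructor
    · have := h.submatrix (Sum.inl : α → α ⊕ β)
      have e : (fromBlocks P 0 0 Q).submatrix (Sum.inl : α → α ⊕ β) Sum.inl = P := by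
        ext i j; simp
      rwa [e] at this
    · have := h.submatrix (Sum.inr : β → α ⊕ β)
      have e : (fromBlocks P 0 0 Q).submatrix (Sum.inr : β → α ⊕ β) Sum.inr = Q := by
        ext i j; simp
      rwa [e] at this
  · rintro ⟨hP, hQ⟩
    refine PosSemidef.of_dotProduct_mulVec_nonneg ?_ ?_
    · have h1 : Pᴴ = P := hP.isHermitian
      have h2 : Qᴴ = Q := hQ.isHermitian
      unfold IsHermitian
      rw [fromBlocks_conjTranspose, h1, h2]
      simp
    · intro x
      have h1 := hP.dotProduct_mulVec_nonneg (fun i => x (Sum.inl i))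
      have h2 := hQ.dotProduct_mulVec_nonneg (fun i => x (Sum.inr i))
      have e : star x ⬝ᵥ (fromBlocks P 0 0 Q *ᵥ x) =
          star (fun i => x (Sum.inl i)) ⬝ᵥ (P *ᵥ fun i => x (Sum.inl i)) +
            star (fun i => x (Sum.inr i)) ⬝ᵥ (Q *ᵥ fun i => x (Sum.inr i)) := by
        simp only [dotProduct, mulVec, Fintype.sum_sum_type, fromBlocks_apply₁₁,
          fromBlocks_apply₁₂, fromBlocks_apply₂₁, fromBlocks_apply₂₂, Matrix.zero_apply, zero_mul,
          Finset.sum_const_zero, add_zero, zero_add, Pi.star_apply]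
      rw [e]
      exact add_nonneg h1 h2

/-- The symmetric matrix `U + Uᵀ` of a vector of auxiliary variables. -/
def symOf (u : Fin k × Fin k → ℝ) : Matrix (Fin k) (Fin k) ℝ :=
  Matrix.of fun a b => u (a, b) + u (b, a)

theorem symOf_isSymm (u : Fin k × Fin k → ℝ) : (symOf u).IsSymm := by
  ext a b
  simp [symOf, add_comm]

theorem symOf_add (u v : Fin k × Fin k → ℝ) : symOf (u + v) = symOf u + symOf v := by
  ext a b
  simp [symOf]
  ring

theorem symOf_smul (c : ℝ) (u : Fin k × Fin k → ℝ) : symOf (c • u) = c • symOf u := by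
  ext a b
  simp [symOf]
  ring

theorem bord_add (W W' : Matrix (Fin k) (Fin k) ℝ) (w w' : Fin k → ℝ) (s s' : ℝ) :
    bord (W + W') (w + w') (s + s') = bord W w s + bord W' w' s' := by
  unfold bord
  rw [fromBlocks_add]
  rfl

theorem bord_smul (c : ℝ) (W : Matrix (Fin k) (Fin k) ℝ) (w : Fin k → ℝ) (s : ℝ) :
    bord (c • W) (c • w) (c • s) = c • bord W w s := by
  unfold bord
  rw [fromBlocks_smul]
  rfl

theorem bord_isSymm (W : Matrix (Fin k) (Fin k) ℝ) (hW : W.IsSymm) (w : Fin k → ℝ) (s : ℝ) :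
    (bord W w s).IsSymm := by
  unfold bord
  refine IsSymm.fromBlocks hW ?_ ?_
  · ext i j; rfl
  · ext i j; rfl

theorem lin_add (A : Fin n → Matrix (Fin r) (Fin r) ℝ) (x x' : Fin n → ℝ) :
    lin A (x + x') = lin A x + lin A x' := by
  unfold lin
  rw [← Finset.sum_add_distrib]
  refine Finset.sum_congr rfl fun i _ => ?_
  rw [Pi.add_apply, add_smul]

theorem lin_smul (A : Fin n → Matrix (Fin r) (Fin r) ℝ) (c : ℝ) (x : Fin n → ℝ) :
    lin A (c • x) = c • lin A x := by
  unfold lin
  rw [Finset.smul_sum]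
  refine Finset.sum_congr rfl fun i _ => ?_
  rw [Pi.smul_apply, smul_eq_mul, mul_smul]

theorem lin_isSymm (A : Fin n → Matrix (Fin r) (Fin r) ℝ) (hA : ∀ i, (A i).IsSymm)
    (x : Fin n → ℝ) : (lin A x).IsSymm := by
  unfold lin IsSymm
  rw [transpose_sum]
  refine Finset.sum_congr rfl fun i _ => ?_
  rw [transpose_smul, hA i]

theorem hat_add (G : Fin k → Fin k → Matrix (Fin r) (Fin r) ℝ) (W W' : Matrix (Fin k) (Fin k) ℝ) :
    hat G (W + W') = hat G W + hat G W' := by
  unfold hat
  rw [← Finset.sum_add_distrib]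
  refine Finset.sum_congr rfl fun a _ => ?_
  rw [← Finset.sum_add_distrib]
  refine Finset.sum_congr rfl fun b _ => ?_
  rw [Matrix.add_apply, add_smul]

theorem hat_smul (G : Fin k → Fin k → Matrix (Fin r) (Fin r) ℝ) (c : ℝ)
    (W : Matrix (Fin k) (Fin k) ℝ) : hat G (c • W) = c • hat G W := by
  unfold hat
  rw [Finset.smul_sum]
  refine Finset.sum_congr rfl fun a _ => ?_
  rw [Finset.smul_sum]
  refine Finset.sum_congr rfl fun b _ => ?_
  rw [Matrix.smul_apply, smul_eq_mul, mul_smul]

/-- The bilinear map behind `quad`. -/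
def bil (G : Fin k → Fin k → Matrix (Fin r) (Fin r) ℝ) (v w : Fin k → ℝ) :
    Matrix (Fin r) (Fin r) ℝ := ∑ a, ∑ b, (v a * w b) • G a b

theorem bil_single (G : Fin k → Fin k → Matrix (Fin r) (Fin r) ℝ) (a b : Fin k) :
    bil G (Pi.single a 1) (Pi.single b 1) = G a b := by
  unfold bil
  rw [Finset.sum_eq_single a]
  · rw [Finset.sum_eq_single b]
    · simp
    · intro c _ hc
      simp [Pi.single_eq_of_ne hc]
    · intro h; exact absurd (Finset.mem_univ _) h
  · intro c _ hc
    simp [Pi.single_eq_of_ne hc]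
  · intro h; exact absurd (Finset.mem_univ _) h

theorem quad_add (G : Fin k → Fin k → Matrix (Fin r) (Fin r) ℝ) (v w : Fin k → ℝ) :
    quad G (v + w) = quad G v + quad G w + (bil G v w + bil G w v) := by
  unfold quad bil
  simp only [← Finset.sum_add_distrib]
  refine Finset.sum_congr rfl fun a _ => ?_
  refine Finset.sum_congr rfl fun b _ => ?_
  simp only [← add_smul, Pi.add_apply]
  congr 1
  ring

theorem pair_isSymm (G : Fin k → Fin k → Matrix (Fin r) (Fin r) ℝ)
    (hG : ∀ w, (quad G w).IsSymm) (a b : Fin k) : (G a b + G b a).IsSymm := by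
  have h := quad_add G (Pi.single a 1) (Pi.single b 1)
  rw [bil_single, bil_single] at h
  have h' : G a b + G b a = quad G (Pi.single a 1 + Pi.single b 1) - quad G (Pi.single a 1)
      - quad G (Pi.single b 1) := by
    rw [h]; abel
  rw [h']
  exact ((hG _).sub (hG _)).sub (hG _)

theorem hat_symOf (G : Fin k → Fin k → Matrix (Fin r) (Fin r) ℝ) (u : Fin k × Fin k → ℝ) :
    hat G (symOf u) = ∑ a, ∑ b, u (a, b) • (G a b + G b a) := by
  unfold hat symOf
  simp only [Matrix.of_apply, add_smul, smul_add, Finset.sum_add_distrib]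
  congr 1
  rw [Finset.sum_comm]

theorem hat_symOf_isSymm (G : Fin k → Fin k → Matrix (Fin r) (Fin r) ℝ)
    (hG : ∀ w, (quad G w).IsSymm) (u : Fin k × Fin k → ℝ) : (hat G (symOf u)).IsSymm := by
  rw [hat_symOf]
  unfold IsSymm
  rw [transpose_sum]
  refine Finset.sum_congr rfl fun a _ => ?_
  rw [transpose_sum]
  refine Finset.sum_congr rfl fun b _ => ?_
  rw [transpose_smul, pair_isSymm G hG a b]

/-- Apply `isShadow_of_linear` with `ι = (Fin k ⊕ Unit) ⊕ Fin r`, `κ = Fin k × Fin k` and
`M (y, u) = fromBlocks (bord (U + Uᵀ) (wOf y) (sOf y)) 0 0 (lin A (xOf y) - hat G (U + Uᵀ))`, where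
`U a b = u (a, b)`.  A block diagonal matrix is PSD iff both blocks are (submatrix for one direction,
the quadratic form for the other).  A PSD `bord W w s` has `W` symmetric, so `W = U + Uᵀ` with
`U = (1/2) W`.  Symmetry of `hat G (U + Uᵀ)`: `quad G w` is symmetric for every `w`, hence
`G a a` and `G a b + G b a` are symmetric (polarisation: `w = e_a`, `w = e_a + e_b`). -/
theorem isShadow_lift (A : Fin n → Matrix (Fin r) (Fin r) ℝ) (hA : ∀ i, (A i).IsSymm)
    (G : Fin k → Fin k → Matrix (Fin r) (Fin r) ℝ) (hG : ∀ w, (quad G w).PosSemidef) :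
    IsShadow {y : Var n k → ℝ | ∃ W : Matrix (Fin k) (Fin k) ℝ,
      (bord W (wOf y) (sOf y)).PosSemidef ∧ (lin A (xOf y) - hat G W).PosSemidef} := by
  classical
  have hGs : ∀ w, (quad G w).IsSymm := fun w => by
    have := (hG w).isHermitian
    unfold IsHermitian at this
    rwa [conjTranspose_eq_transpose_of_trivial] at this
  have key := isShadow_of_linear (σ := Var n k) (ι := (Fin k ⊕ Unit) ⊕ Fin r) (κ := Fin k × Fin k)
    (fun z => fromBlocks (bord (symOf z.2) (wOf z.1) (sOf z.1)) 0 0
      (lin A (xOf z.1) - hat G (symOf z.2))) ?_ ?_ ?_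
  · have hset : {y : Var n k → ℝ | ∃ W : Matrix (Fin k) (Fin k) ℝ,
        (bord W (wOf y) (sOf y)).PosSemidef ∧ (lin A (xOf y) - hat G W).PosSemidef} =
        {y : Var n k → ℝ | ∃ u : Fin k × Fin k → ℝ,
          (fromBlocks (bord (symOf u) (wOf y) (sOf y)) 0 0
            (lin A (xOf y) - hat G (symOf u))).PosSemidef} := by
      ext y
      simp only [Set.mem_ofPred_eq, posSemidef_blockDiag]
      constructor
      · rintro ⟨W, h1, h2⟩
        have hW : W.IsSymm := by
          have h3 := h1.isHermitian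
          unfold IsHermitian at h3
          rw [conjTranspose_eq_transpose_of_trivial] at h3
          ext a b
          have := congrFun (congrFun h3 (Sum.inl a)) (Sum.inl b)
          simpa [bord] using this
        have hu : symOf (fun p : Fin k × Fin k => W p.1 p.2 / 2) = W := by
          ext a b
          have : W b a = W a b := hW.apply a b
          simp only [symOf, Matrix.of_apply, this]
          ring
        exact ⟨fun p => W p.1 p.2 / 2, by rw [hu]; exact h1, by rw [hu]; exact h2⟩
      · rintro ⟨u, h1, h2⟩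
        exact ⟨symOf u, h1, h2⟩
    rw [hset]
    exact key
  · intro z z'
    have e1 : wOf (z + z').1 = wOf z.1 + wOf z'.1 := rfl
    have e2 : sOf (z + z').1 = sOf z.1 + sOf z'.1 := rfl
    have e3 : xOf (z + z').1 = xOf z.1 + xOf z'.1 := rfl
    have e4 : (z + z').2 = z.2 + z'.2 := rfl
    simp only [e1, e2, e3, e4, symOf_add, bord_add, lin_add, hat_add, fromBlocks_add, add_zero]
    congr 1
    abel
  · intro c z
    have e1 : wOf (c • z).1 = c • wOf z.1 := rfl
    have e2 : sOf (c • z).1 = c • sOf z.1 := rfl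
    have e3 : xOf (c • z).1 = c • xOf z.1 := rfl
    have e4 : (c • z).2 = c • z.2 := rfl
    simp only [e1, e2, e3, e4, symOf_smul, bord_smul, lin_smul, hat_smul, fromBlocks_smul,
      smul_zero, smul_sub]
  · intro z
    refine IsSymm.fromBlocks (bord_isSymm _ (symOf_isSymm _) _ _) (by simp) ?_
    exact (lin_isSymm A hA _).sub (hat_symOf_isSymm G hGs _)

end Vale.Agent.P256
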