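import Vale.Agent.P256.Defs

/-! # P256 leaf: all roots are real -/

namespace Vale.Agent.P256

open Matrix

variable {r : ℕ}

/-- The Hermitian form of a real symmetric matrix at a complex vector is the sum of the real forms
at the real and imaginary parts. -/
theorem quad_complex (M : Matrix (Fin r) (Fin r) ℝ) (hM : M.IsSymm) (v : Fin r → ℂ) :
    star v ⬝ᵥ (M.map Complex.ofReal *ᵥ v) =
      (((fun i => (v i).re) ⬝ᵥ (M *ᵥ fun i => (v i).re) +
        (fun i => (v i).im) ⬝ᵥ (M *ᵥ fun i => (v i).im) : ℝ) : ℂ) := by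
  have hsymm : ∀ i j, M i j = M j i := fun i j => by
    have := congrFun (congrFun hM j) i
    simpa [Matrix.transpose_apply] using this
  apply Complex.ext
  · simp only [dotProduct, mulVec, Pi.star_apply, Matrix.map_apply, Complex.re_sum,
      Complex.mul_re, Complex.ofReal_re, Complex.ofReal_im, Complex.star_def, Complex.conj_re,
      Complex.conj_im, Complex.im_sum, Complex.mul_im, zero_mul, sub_zero, add_zero]
    rw [← Finset.sum_add_distrib]
    apply Finset.sum_congr rfl
    intro i _
    ring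
  · simp only [dotProduct, mulVec, Pi.star_apply, Matrix.map_apply, Complex.re_sum,
      Complex.mul_re, Complex.ofReal_re, Complex.ofReal_im, Complex.star_def, Complex.conj_re,
      Complex.conj_im, Complex.im_sum, Complex.mul_im, zero_mul, sub_zero, add_zero]
    have h1 : ∑ i, (v i).re * ∑ j, M i j * (v j).im = ∑ i, (v i).im * ∑ j, M i j * (v j).re := by
      simp only [Finset.mul_sum]
      rw [Finset.sum_comm]
      apply Finset.sum_congr rfl
      intro i _
      apply Finset.sum_congr rfl
      intro j _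
      rw [hsymm j i]
      ring
    have h2 : ∑ i, ((v i).re * ∑ j, M i j * (v j).im + -(v i).im * ∑ j, M i j * (v j).re) =
        ∑ i, (v i).re * ∑ j, M i j * (v j).im - ∑ i, (v i).im * ∑ j, M i j * (v j).re := by
      rw [← Finset.sum_sub_distrib]
      apply Finset.sum_congr rfl
      intro i _
      ring
    rw [h2, h1, sub_self]

/-- If `det ((t - s) (t E - a) - G) = 0` for a complex `t`, take `v ≠ 0` in the kernel
(`Matrix.exists_mulVec_eq_zero_iff`) and pair with `star v`.  For a real symmetric matrix `M` and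
`v = v1 + i v2` one has `star v ⬝ᵥ (M v) = v1 ⬝ᵥ M v1 + v2 ⬝ᵥ M v2`, a real number; call these numbers
`ε > 0` (for `E`), `α` (for `a`), `γ ≥ 0` (for `G`).  Then `(t - s) (t ε - α) - γ = 0`, so
`(2 ε t - (s ε + α)) ^ 2 = (s ε - α) ^ 2 + 4 ε γ ≥ 0`, and a complex number whose square is a
nonnegative real is real. -/
theorem root_real (E a G : Matrix (Fin r) (Fin r) ℝ) (hE : E.PosDef) (ha : a.IsSymm)
    (hG : G.PosSemidef) (s : ℝ) (t : ℂ)
    (h : ((t - (s : ℂ)) • (t • E.map Complex.ofReal - a.map Complex.ofReal)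
      - G.map Complex.ofReal).det = 0) : t.im = 0 := by
  obtain ⟨v, hv0, hv⟩ := Matrix.exists_mulVec_eq_zero_iff.2 h
  have hEs : E.IsSymm := by
    have := hE.isHermitian
    rw [Matrix.IsHermitian, Matrix.conjTranspose_eq_transpose_of_trivial] at this
    exact this
  have hGs : G.IsSymm := by
    have := hG.isHermitian
    rw [Matrix.IsHermitian, Matrix.conjTranspose_eq_transpose_of_trivial] at this
    exact this
  set x : Fin r → ℝ := fun i => (v i).re with hx
  set y : Fin r → ℝ := fun i => (v i).im with hy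
  set ε : ℝ := x ⬝ᵥ (E *ᵥ x) + y ⬝ᵥ (E *ᵥ y) with hε
  set α : ℝ := x ⬝ᵥ (a *ᵥ x) + y ⬝ᵥ (a *ᵥ y) with hα
  set γ : ℝ := x ⬝ᵥ (G *ᵥ x) + y ⬝ᵥ (G *ᵥ y) with hγ
  have hxy : x ≠ 0 ∨ y ≠ 0 := by
    by_contra hc
    push Not at hc
    apply hv0
    funext i
    apply Complex.ext
    · exact congrFun hc.1 i
    · exact congrFun hc.2 i
  have hEx : 0 ≤ x ⬝ᵥ (E *ᵥ x) := by
    have := hE.posSemidef.dotProduct_mulVec_nonneg x
    simpa using this
  have hEy : 0 ≤ y ⬝ᵥ (E *ᵥ y) := by
    have := hE.posSemidef.dotProduct_mulVec_nonneg y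
    simpa using this
  have hεpos : 0 < ε := by
    rcases hxy with h1 | h1
    · have := hE.dotProduct_mulVec_pos h1
      have h2 : 0 < x ⬝ᵥ (E *ᵥ x) := by simpa using this
      linarith
    · have := hE.dotProduct_mulVec_pos h1
      have h2 : 0 < y ⬝ᵥ (E *ᵥ y) := by simpa using this
      linarith
  have hγ0 : 0 ≤ γ := by
    have h1 := hG.dotProduct_mulVec_nonneg x
    have h2 := hG.dotProduct_mulVec_nonneg y
    have h1' : 0 ≤ x ⬝ᵥ (G *ᵥ x) := by simpa using h1
    have h2' : 0 ≤ y ⬝ᵥ (G *ᵥ y) := by simpa using h2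
    linarith
  -- the scalar equation
  have hsc : (t - (s : ℂ)) * (t * (ε : ℂ) - (α : ℂ)) - (γ : ℂ) = 0 := by
    have h0 : star v ⬝ᵥ (((t - (s : ℂ)) • (t • E.map Complex.ofReal - a.map Complex.ofReal)
      - G.map Complex.ofReal) *ᵥ v) = 0 := by rw [hv]; simp
    rw [Matrix.sub_mulVec, Matrix.smul_mulVec, Matrix.sub_mulVec, Matrix.smul_mulVec,
      dotProduct_sub, dotProduct_smul, dotProduct_sub, dotProduct_smul,
      quad_complex E hEs v, quad_complex a ha v, quad_complex G hGs v] at h0
    simp only [smul_eq_mul] at h0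
    exact h0
  -- imaginary and real parts
  have him := congrArg Complex.im hsc
  have hre := congrArg Complex.re hsc
  simp only [Complex.sub_im, Complex.mul_im, Complex.sub_re, Complex.mul_re, Complex.ofReal_re,
    Complex.ofReal_im, Complex.zero_im, Complex.zero_re, mul_zero, sub_zero] at him hre
  by_contra hne
  -- from the imaginary part: 2 ε re t = s ε + α
  have h1 : (t.re - s) * ε + (t.re * ε - α) = 0 := by
    have : t.im * ((t.re - s) * ε + (t.re * ε - α)) = 0 := by nlinarith
    rcases mul_eq_zero.1 this with h | h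
    · exact absurd h hne
    · exact h
  have h2 : 0 < t.im ^ 2 := by positivity
  have h3 : t.re * ε - α = -((t.re - s) * ε) := by linarith
  rw [h3] at hre
  have h4 : 0 ≤ (t.re - s) ^ 2 * ε := mul_nonneg (sq_nonneg _) hεpos.le
  have h5 : 0 < t.im ^ 2 * ε := mul_pos h2 hεpos
  nlinarith

end Vale.Agent.P256
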