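import Vale.Agent.P256.Eval
import Vale.Agent.P256.RealRoot
import Vale.Agent.P256.Cone
import Vale.Agent.P256.Lift
import Vale.Agent.P256.Pack2

/-! # P256: assembly -/

namespace Vale.Agent.P256

open MvPolynomial Matrix

variable {n k r : ℕ}

theorem isHyperbolic_thePoly (A : Fin n → Matrix (Fin r) (Fin r) ℝ) (hA : ∀ i, (A i).IsSymm)
    (G : Fin k → Fin k → Matrix (Fin r) (Fin r) ℝ) (hG : ∀ w, (quad G w).PosSemidef)
    (e0 : Fin n → ℝ) (he : (lin A e0).PosDef) : IsHyperbolic (thePoly A G) (dir e0) := by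
  refine ⟨⟨2 * r, thePoly_isHomogeneous A G⟩, ?_, ?_⟩
  · rw [eval_thePoly_dir]
    exact he.det_pos
  · intro y t h
    rw [aeval_thePoly_line] at h
    exact root_real _ _ _ he (lin_isSymm A hA _) (hG _) _ t h

theorem hypCone_thePoly (hr : 0 < r) (A : Fin n → Matrix (Fin r) (Fin r) ℝ)
    (hA : ∀ i, (A i).IsSymm)
    (G : Fin k → Fin k → Matrix (Fin r) (Fin r) ℝ) (hG : ∀ w, (quad G w).PosSemidef)
    (e0 : Fin n → ℝ) (he : (lin A e0).PosDef) :
    hypCone (thePoly A G) (dir e0) = {y | 0 ≤ sOf y ∧ (lin A (xOf y)).PosSemidef ∧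
      (sOf y • lin A (xOf y) - quad G (wOf y)).PosSemidef} := by
  ext y
  simp only [hypCone, Set.mem_ofPred_eq, eval_thePoly_line]
  exact cone_iff hr _ _ _ he (lin_isSymm A hA _) (hG _) _

theorem isShadow_hypCone (hr : 0 < r) (A : Fin n → Matrix (Fin r) (Fin r) ℝ)
    (hA : ∀ i, (A i).IsSymm)
    (G : Fin k → Fin k → Matrix (Fin r) (Fin r) ℝ) (hG : ∀ w, (quad G w).PosSemidef)
    (hnd : ∀ w, quad G w = 0 → w = 0)
    (e0 : Fin n → ℝ) (he : (lin A e0).PosDef) : IsShadow (hypCone (thePoly A G) (dir e0)) := by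
  have h := isShadow_lift A hA G hG
  have heq : hypCone (thePoly A G) (dir e0) = {y : Var n k → ℝ | ∃ W : Matrix (Fin k) (Fin k) ℝ,
      (bord W (wOf y) (sOf y)).PosSemidef ∧ (lin A (xOf y) - hat G W).PosSemidef} := by
    rw [hypCone_thePoly hr A hA G hG e0 he]
    ext y
    simp only [Set.mem_ofPred_eq]
    exact lift_iff G hG hnd _ _ _
  rw [heq]
  exact h

end Vale.Agent.P256
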