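import Vale.Agent.P256.Defs

/-! # P256 leaf: a quadratic matrix polynomial that is not positive definite at `t0` is singular at
some `t ≤ t0` -/

namespace Vale.Agent.P256

open Matrix

variable {r : ℕ}

/-- the quadratic form of a matrix -/
def mrqf (M : Matrix (Fin r) (Fin r) ℝ) (v : Fin r → ℝ) : ℝ := v ⬝ᵥ (M *ᵥ v)

lemma mrqf_continuous (M : Matrix (Fin r) (Fin r) ℝ) : Continuous (mrqf M) := by
  unfold mrqf
  exact continuous_id.dotProduct (Continuous.matrix_mulVec continuous_const continuous_id)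

lemma mrqf_smul (M : Matrix (Fin r) (Fin r) ℝ) (c : ℝ) (v : Fin r → ℝ) :
    mrqf M (c • v) = c ^ 2 * mrqf M v := by
  unfold mrqf
  rw [Matrix.mulVec_smul, dotProduct_smul, smul_dotProduct, smul_eq_mul, smul_eq_mul]
  ring

lemma mrqf_pencil (E B C : Matrix (Fin r) (Fin r) ℝ) (t : ℝ) (v : Fin r → ℝ) :
    mrqf (t ^ 2 • E - t • B + C) v = t ^ 2 * mrqf E v - t * mrqf B v + mrqf C v := by
  unfold mrqf
  rw [Matrix.add_mulVec, Matrix.sub_mulVec, Matrix.smul_mulVec, Matrix.smul_mulVec,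
    dotProduct_add, dotProduct_sub, dotProduct_smul, dotProduct_smul, smul_eq_mul, smul_eq_mul]

lemma mr_unit_mem_sphere (x : Fin r → ℝ) (hx : x ≠ 0) :
    ‖x‖⁻¹ • x ∈ Metric.sphere (0 : Fin r → ℝ) 1 := by
  rw [mem_sphere_zero_iff_norm, norm_smul, norm_inv, norm_norm]
  exact inv_mul_cancel₀ (norm_ne_zero_iff.mpr hx)

/-- a form that is nonnegative on the unit sphere is nonnegative -/
lemma mrqf_nonneg_of_sphere (M : Matrix (Fin r) (Fin r) ℝ)
    (h : ∀ u ∈ Metric.sphere (0 : Fin r → ℝ) 1, 0 ≤ mrqf M u) (x : Fin r → ℝ) : 0 ≤ mrqf M x := by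
  by_cases hx : x = 0
  · rw [hx]
    unfold mrqf
    simp
  · have h1 := h _ (mr_unit_mem_sphere x hx)
    rw [mrqf_smul] at h1
    have h2 : 0 < (‖x‖⁻¹) ^ 2 := by
      have := norm_pos_iff.mpr hx
      positivity
    exact nonneg_of_mul_nonneg_right h1 h2

/-- for very negative `t` the pencil is positive on the sphere -/
lemma mr_exists_pos_time (E B C : Matrix (Fin r) (Fin r) ℝ) (hE : E.PosDef) (t0 : ℝ)
    (hne : (Metric.sphere (0 : Fin r → ℝ) 1).Nonempty) :
    ∃ t1 ≤ t0, ∀ v ∈ Metric.sphere (0 : Fin r → ℝ) 1, 0 ≤ mrqf (t1 ^ 2 • E - t1 • B + C) v := by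
  have hK : IsCompact (Metric.sphere (0 : Fin r → ℝ) 1) := isCompact_sphere 0 1
  obtain ⟨v1, hv1, hmin⟩ := hK.exists_isMinOn hne (mrqf_continuous E).continuousOn
  obtain ⟨b, hb⟩ := hK.exists_bound_of_continuousOn (mrqf_continuous B).continuousOn
  obtain ⟨c, hc⟩ := hK.exists_bound_of_continuousOn (mrqf_continuous C).continuousOn
  have hv1ne : v1 ≠ 0 := by
    intro h0
    rw [h0, mem_sphere_zero_iff_norm, norm_zero] at hv1
    exact zero_ne_one hv1
  have hε : 0 < mrqf E v1 := by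
    have := hE.dotProduct_mulVec_pos hv1ne
    simpa [mrqf] using this
  obtain ⟨ε, hεdef⟩ : ∃ ε, ε = mrqf E v1 := ⟨_, rfl⟩
  rw [← hεdef] at hε
  have hb0 : 0 ≤ b := le_trans (norm_nonneg _) (hb v1 hv1)
  have hc0 : 0 ≤ c := le_trans (norm_nonneg _) (hc v1 hv1)
  obtain ⟨s, hs⟩ : ∃ s, s = max (-t0) (1 + (b + c) / ε) := ⟨_, rfl⟩
  have hs1 : 1 + (b + c) / ε ≤ s := by rw [hs]; exact le_max_right _ _
  have hs0 : -t0 ≤ s := by rw [hs]; exact le_max_left _ _
  have hq : 0 ≤ (b + c) / ε := by positivity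
  have hs1' : 1 ≤ s := by linarith
  refine ⟨-s, by linarith, ?_⟩
  intro v hv
  rw [mrqf_pencil]
  have he : ε ≤ mrqf E v := by rw [hεdef]; exact hmin hv
  have hbv : |mrqf B v| ≤ b := hb v hv
  have hcv : |mrqf C v| ≤ c := hc v hv
  have hbv' := abs_le.mp hbv
  have hcv' := abs_le.mp hcv
  have h1 : ε + b + c ≤ s * ε := by
    have : (1 + (b + c) / ε) * ε ≤ s * ε := mul_le_mul_of_nonneg_right hs1 hε.le
    have e1 : (1 + (b + c) / ε) * ε = ε + b + c := by field_simp; ring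
    linarith
  have h2 : s * (ε + b + c) ≤ s * (s * ε) := mul_le_mul_of_nonneg_left h1 (by linarith)
  have h3 : s ^ 2 * ε ≤ s ^ 2 * mrqf E v := mul_le_mul_of_nonneg_left he (by positivity)
  have h4 : -(s * b) ≤ s * mrqf B v := by nlinarith
  have h5 : c ≤ s * c := by nlinarith
  have h6 : 0 ≤ s * ε := by positivity
  nlinarith

/-- Let `Q t = t^2 E - t B + C` with `E` positive definite, `B`, `C` symmetric, and put
`f t v = v ⬝ᵥ Q t v`.  Let `K` be the unit sphere of `Fin r → ℝ` (compact, `isCompact_sphere`) and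
`m t = sInf (f t '' K)`; `m` is continuous (`IsCompact.continuous_sInf`), `m t0 ≤ 0` (normalise
`v0`), and `m t1 > 0` for `t1` very negative (on `K`: `v ⬝ᵥ E v ≥ ε0 > 0`, the forms of `B`, `C` are
bounded).  By the intermediate value theorem `m t = 0` for some `t ≤ t0`; the infimum is attained at
some `v ∈ K`, so `Q t` is positive semidefinite with `v ⬝ᵥ Q t v = 0`, hence `Q t v = 0`
(minimise `u -> (v + c u) ⬝ᵥ Q t (v + c u)`, or use a square root of `Q t`) and `det (Q t) = 0`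
(`Matrix.exists_mulVec_eq_zero_iff`). -/
theorem exists_root_le (E B C : Matrix (Fin r) (Fin r) ℝ) (hE : E.PosDef) (hB : B.IsSymm)
    (hC : C.IsSymm) (t0 : ℝ) (v0 : Fin r → ℝ) (hv0 : v0 ≠ 0)
    (h : v0 ⬝ᵥ ((t0 ^ 2 • E - t0 • B + C) *ᵥ v0) ≤ 0) :
    ∃ t ≤ t0, (t ^ 2 • E - t • B + C).det = 0 := by
  have hK : IsCompact (Metric.sphere (0 : Fin r → ℝ) 1) := isCompact_sphere 0 1
  have hu0 := mr_unit_mem_sphere v0 hv0
  have hne : (Metric.sphere (0 : Fin r → ℝ) 1).Nonempty := ⟨_, hu0⟩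
  obtain ⟨t1, ht1, hpos⟩ := mr_exists_pos_time E B C hE t0 hne
  obtain ⟨f, hf⟩ : ∃ f : ℝ → (Fin r → ℝ) → ℝ, f = fun t v => mrqf (t ^ 2 • E - t • B + C) v :=
    ⟨_, rfl⟩
  have hfc : Continuous (Function.uncurry f) := by
    have e : Function.uncurry f
        = fun p : ℝ × (Fin r → ℝ) => p.1 ^ 2 * mrqf E p.2 - p.1 * mrqf B p.2 + mrqf C p.2 := by
      funext p
      rw [hf]
      exact mrqf_pencil E B C p.1 p.2
    rw [e]
    have h1 := (mrqf_continuous E).comp continuous_snd (X := ℝ × (Fin r → ℝ))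
    have h2 := (mrqf_continuous B).comp continuous_snd (X := ℝ × (Fin r → ℝ))
    have h3 := (mrqf_continuous C).comp continuous_snd (X := ℝ × (Fin r → ℝ))
    exact (((continuous_fst.pow 2).mul h1).sub (continuous_fst.mul h2)).add h3
  have hft : ∀ t, Continuous (f t) := by
    intro t
    rw [hf]
    exact mrqf_continuous _
  have hm : Continuous fun t => sInf (f t '' Metric.sphere (0 : Fin r → ℝ) 1) :=
    hK.continuous_sInf hfc
  have hbdd : ∀ t, BddBelow (f t '' Metric.sphere (0 : Fin r → ℝ) 1) :=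
    fun t => (hK.image (hft t)).bddBelow
  have hm0 : sInf (f t0 '' Metric.sphere (0 : Fin r → ℝ) 1) ≤ 0 := by
    refine le_trans (csInf_le (hbdd t0) (Set.mem_image_of_mem _ hu0)) ?_
    rw [hf]
    simp only
    rw [mrqf_smul]
    exact mul_nonpos_of_nonneg_of_nonpos (by positivity) h
  have hm1 : 0 ≤ sInf (f t1 '' Metric.sphere (0 : Fin r → ℝ) 1) := by
    apply le_csInf (hne.image _)
    rintro _ ⟨v, hv, rfl⟩
    rw [hf]
    exact hpos v hv
  obtain ⟨t, ht, hmt⟩ := intermediate_value_Icc' ht1 hm.continuousOn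
    (Set.mem_Icc.mpr ⟨hm0, hm1⟩)
  simp only at hmt
  refine ⟨t, ht.2, ?_⟩
  obtain ⟨v, hv, hfv⟩ := (hK.image (hft t)).sInf_mem (hne.image _)
  rw [hmt] at hfv
  have hnn : ∀ u ∈ Metric.sphere (0 : Fin r → ℝ) 1, 0 ≤ mrqf (t ^ 2 • E - t • B + C) u := by
    intro u hu
    have h1 := csInf_le (hbdd t) (Set.mem_image_of_mem _ hu)
    rw [hmt, hf] at h1
    exact h1
  have hherm : (t ^ 2 • E - t • B + C).IsHermitian := by
    have hE' : Eᴴ = E := hE.1
    have hB' : Bᴴ = B := by rw [conjTranspose_eq_transpose_of_trivial]; exact hB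
    have hC' : Cᴴ = C := by rw [conjTranspose_eq_transpose_of_trivial]; exact hC
    unfold Matrix.IsHermitian
    rw [conjTranspose_add, conjTranspose_sub, conjTranspose_smul, conjTranspose_smul, hE', hB', hC']
    simp
  have hpsd : (t ^ 2 • E - t • B + C).PosSemidef := by
    apply Matrix.PosSemidef.of_dotProduct_mulVec_nonneg hherm
    intro x
    have := mrqf_nonneg_of_sphere _ hnn x
    simpa [mrqf] using this
  have hv0' : v ≠ 0 := by
    intro h0
    rw [h0, mem_sphere_zero_iff_norm, norm_zero] at hv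
    exact zero_ne_one hv
  have hzero : (t ^ 2 • E - t • B + C) *ᵥ v = 0 := by
    apply (hpsd.dotProduct_mulVec_zero_iff v).mp
    rw [hf] at hfv
    simpa [mrqf] using hfv
  exact Matrix.exists_mulVec_eq_zero_iff.mp ⟨v, hv0', hzero⟩

end Vale.Agent.P256
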