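import Vale.Agent.P256.Defs

/-! # P256 leaf: a set defined by a linear matrix inequality with auxiliary variables over arbitrary
finite index types is a spectrahedral shadow in the sense of `IsShadow` -/

namespace Vale.Agent.P256

open Matrix

/-- Take `m = Fintype.card ι`, `a = Fintype.card κ`, reindex with `Fintype.equivFin`
(`Matrix.posSemidef_submatrix_equiv`), `A0 = 0`, `A i = M (Pi.single i 1, 0)`,
`B j = M (0, Pi.single j 1)`; additivity and homogeneity give
`M (y, u) = ∑ i, y i • M (Pi.single i 1, 0) + ∑ j, u j • M (0, Pi.single j 1)`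
(make `M` a `LinearMap` and use `LinearMap.pi_apply_eq_sum_univ` or `Finset.univ_sum_single`). -/
theorem isShadow_of_linear {σ ι κ : Type} [Fintype σ] [DecidableEq σ] [Fintype ι] [DecidableEq ι]
    [Fintype κ] [DecidableEq κ] (M : (σ → ℝ) × (κ → ℝ) → Matrix ι ι ℝ)
    (hadd : ∀ z z', M (z + z') = M z + M z') (hsmul : ∀ (c : ℝ) z, M (c • z) = c • M z)
    (hsymm : ∀ z, (M z).IsSymm) :
    IsShadow {y : σ → ℝ | ∃ u : κ → ℝ, (M (y, u)).PosSemidef} := by
  classical
  let L : (σ → ℝ) × (κ → ℝ) →ₗ[ℝ] Matrix ι ι ℝ :=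
    { toFun := M, map_add' := hadd, map_smul' := hsmul }
  have hL : ∀ z, L z = M z := fun _ => rfl
  have key : ∀ (y : σ → ℝ) (u : κ → ℝ), M (y, u) =
      ∑ i, y i • M (Pi.single i 1, 0) + ∑ j, u j • M (0, Pi.single j 1) := by
    intro y u
    have h1 : (y, u) = ∑ i, y i • ((Pi.single i 1 : σ → ℝ), (0 : κ → ℝ))
        + ∑ j, u j • ((0 : σ → ℝ), (Pi.single j 1 : κ → ℝ)) := by
      apply Prod.ext
      · simp only [Prod.fst_add, Prod.fst_sum, Prod.smul_fst, smul_zero, Finset.sum_const_zero,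
          add_zero]
        exact pi_eq_sum_univ' y
      · simp only [Prod.snd_add, Prod.snd_sum, Prod.smul_snd, smul_zero, Finset.sum_const_zero,
          zero_add]
        exact pi_eq_sum_univ' u
    rw [← hL, h1, map_add, map_sum, map_sum]
    simp only [hL, hsmul]
  let eι : ι ≃ Fin (Fintype.card ι) := Fintype.equivFin ι
  let eκ : κ ≃ Fin (Fintype.card κ) := Fintype.equivFin κ
  have hmat : ∀ (y : σ → ℝ) (u' : Fin (Fintype.card κ) → ℝ),
      (0 : Matrix (Fin (Fintype.card ι)) (Fin (Fintype.card ι)) ℝ)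
        + ∑ i, y i • (M (Pi.single i 1, 0)).submatrix eι.symm eι.symm
        + ∑ j, u' j • (M (0, Pi.single (eκ.symm j) 1)).submatrix eι.symm eι.symm
      = (M (y, u' ∘ eκ)).submatrix eι.symm eι.symm := by
    intro y u'
    rw [key]
    ext p q
    simp only [Matrix.add_apply, Matrix.sum_apply, Matrix.smul_apply,
      Matrix.submatrix_apply, zero_add, Function.comp_apply]
    congr 1
    rw [← Equiv.sum_comp eκ]
    simp only [Equiv.symm_apply_apply]
  refine ⟨Fintype.card ι, Fintype.card κ, 0,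
    fun i => (M (Pi.single i 1, 0)).submatrix eι.symm eι.symm,
    fun j => (M (0, Pi.single (eκ.symm j) 1)).submatrix eι.symm eι.symm, ?_, ?_, ?_, ?_⟩
  · exact Matrix.isSymm_zero
  · intro i
    exact (hsymm _).submatrix _
  · intro j
    exact (hsymm _).submatrix _
  · ext y
    simp only [Set.mem_ofPred_eq]
    constructor
    · rintro ⟨u, hu⟩
      refine ⟨u ∘ eκ.symm, ?_⟩
      rw [hmat, Matrix.posSemidef_submatrix_equiv]
      have : (u ∘ eκ.symm) ∘ eκ = u := by
        funext k
        simp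
      rw [this]
      exact hu
    · rintro ⟨u', hu'⟩
      refine ⟨u' ∘ eκ, ?_⟩
      rw [hmat, Matrix.posSemidef_submatrix_equiv] at hu'
      exact hu'

end Vale.Agent.P256
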